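import Vale.Agent.P088.H442.Defs3
import Vale.Agent.P088.H884.A4

/-!
# P088, row CF_INT: decay at the integers implies decay at all real frequencies
-/

open MeasureTheory Set
open scoped ContDiff Matrix

noncomputable section

namespace Vale.Agent.P088.H327

open Vale.Agent.P088.LR Vale.Agent.P088.LR.CF Vale.Agent.P088.H884

variable {n : ℕ}

theorem one_le_wt (k : Ix n) : 1 ≤ wt k := by
  have : 0 ≤ ∑ j, |(k j : ℝ)| := Finset.sum_nonneg fun j _ => abs_nonneg _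
  unfold wt
  linarith

theorem one_le_wr (ζ : V n) : 1 ≤ wr ζ := by
  have : 0 ≤ ∑ j, |ζ j| := Finset.sum_nonneg fun j _ => abs_nonneg _
  unfold wr
  linarith

theorem wr_fr_zero (k : Ix n) : wr (fr 0 k) = wt k := by
  simp [wr, wt, fr]

theorem wr_add_le (a b : V n) : wr (a + b) ≤ wr a * wr b := by
  have ha : 0 ≤ ∑ j, |a j| := Finset.sum_nonneg fun j _ => abs_nonneg _
  have hb : 0 ≤ ∑ j, |b j| := Finset.sum_nonneg fun j _ => abs_nonneg _
  have h : ∑ j, |(a + b) j| ≤ ∑ j, |a j| + ∑ j, |b j| := by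
    rw [← Finset.sum_add_distrib]
    exact Finset.sum_le_sum fun j _ => abs_add_le _ _
  unfold wr
  nlinarith [mul_nonneg ha hb]

theorem wr_fr_le {θ : V n} (hθ : ∀ j, |θ j| ≤ 1) (k : Ix n) : wr (fr θ k) ≤ (1 + n) * wt k := by
  have ha : 0 ≤ ∑ j, |(k j : ℝ)| := Finset.sum_nonneg fun j _ => abs_nonneg _
  have h : ∑ j, |fr θ k j| ≤ ∑ j, |(k j : ℝ)| + n := by
    have h2 : ∑ j : Fin n, (1 : ℝ) = n := by simp
    rw [← h2, ← Finset.sum_add_distrib]
    refine Finset.sum_le_sum fun j _ => ?_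
    exact (abs_add_le _ _).trans (by linarith [hθ j])
  have hn : (0 : ℝ) ≤ n := Nat.cast_nonneg n
  unfold wr wt
  nlinarith [mul_nonneg hn ha]

/-- Interpolation: the Fourier transform at real frequencies from the integer ones. -/
theorem ft_interp {f χ : V n → ℂ} (hf0 : ∀ x ∉ core n, f x = 0) (hχ : ∀ x ∈ core n, χ x = 1)
    (hχc : Continuous χ) (hχs : HasCompactSupport χ) (hχt : tsupport χ ⊆ cube n)
    (hs : Summable fun k => ‖cf 0 f k‖) (hexp : ∀ x ∈ cube n, f x = Es 0 (cf 0 f) x) (ζ : V n) :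
    ft f ζ = ∑' k, cf 0 f k * ft χ (ζ - fr 0 k) := by
  have hχi : Integrable χ := hχc.integrable_of_hasCompactSupport hχs
  set F : Ix n → V n → ℂ := fun k x => χ x * (cf 0 f k * ex (-(ζ - fr 0 k)) x) with hF
  have hFn : ∀ k x, ‖F k x‖ = ‖χ x‖ * ‖cf 0 f k‖ := fun k x => by
    rw [hF]; simp only [norm_mul, norm_ex, mul_one]
  have hFi : ∀ k, Integrable (F k) := fun k => by
    have : F k = fun x => (cf 0 f k * ex (-(ζ - fr 0 k)) x) * χ x := by
      funext x; simp only [hF]; ring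
    rw [this]
    refine hχi.bdd_mul (c := ‖cf 0 f k‖) ?_ ?_
    · exact (continuous_const.mul (continuous_ex _)).aestronglyMeasurable
    · exact Filter.Eventually.of_forall fun x => by simp [norm_ex]
  have hFs : Summable fun k => ∫ x, ‖F k x‖ := by
    simp only [hFn, integral_mul_const]
    exact hs.mul_left _
  have h1 : ∑' k, ∫ x, F k x = ∫ x, ∑' k, F k x :=
    integral_tsum_of_summable_integral_norm hFi hFs
  have h2 : ∀ k, ∫ x, F k x = cf 0 f k * ft χ (ζ - fr 0 k) := fun k => by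
    simp only [hF, ft]
    rw [← integral_const_mul]
    refine integral_congr_ae (Filter.Eventually.of_forall fun x => ?_)
    simp only
    ring
  have h3 : ∀ x, ∑' k, F k x = f x * ex (-ζ) x := fun x => by
    by_cases hx : x ∈ cube n
    · have e1 : ∀ k, F k x = (χ x * ex (-ζ) x) * (cf 0 f k * ex (fr 0 k) x) := fun k => by
        have : ex (-(ζ - fr 0 k)) x = ex (-ζ) x * ex (fr 0 k) x := by
          rw [ex_mul]
          congr 1
          funext j
          simp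
          ring
        simp only [hF, this]
        ring
      simp only [e1, tsum_mul_left]
      rw [show ∑' k, cf 0 f k * ex (fr 0 k) x = Es 0 (cf 0 f) x from rfl, ← hexp x hx]
      by_cases hc : x ∈ core n
      · rw [hχ x hc]; ring
      · rw [hf0 x hc]; ring
    · have hχ0 : χ x = 0 := by
        by_contra h
        exact hx (hχt (subset_tsupport _ h))
      have hfx : f x = 0 := hf0 x fun h => hx (core_subset_cube n h)
      simp [hF, hχ0, hfx]
  calc ft f ζ = ∫ x, f x * ex (-ζ) x := rfl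
    _ = ∫ x, ∑' k, F k x := by simp only [h3]
    _ = ∑' k, ∫ x, F k x := h1.symm
    _ = _ := by simp only [h2]

theorem int (A3 : RowA3) : RowINT := by
  intro n
  obtain ⟨C, hC, h3⟩ := A3 n (n + 1)
  obtain ⟨χ, hχs, hχ1, hχt, hχc⟩ := exists_chi n
  obtain ⟨B, hB, hχB⟩ := exists_cl (k := n + 1 + n + 1) hχs hχc
  refine ⟨(1 + n) ^ (n + 1) * (C * B), by positivity, fun f hf hf0 a ha ζ => ?_⟩
  have hft : tsupport f ⊆ core n := by
    refine closure_minimal (fun x hx => ?_) (isClosed_core n)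
    by_contra h
    exact hx (hf0 x h)
  obtain ⟨hc, hexp, -⟩ := h3 f hf (hft.trans (core_subset_cube n)) 0 (by simp)
  have hcs : Summable fun k => ‖cf 0 f k‖ := by simpa using hc 0
  have ha0 : 0 ≤ a := le_trans (by positivity [one_le_wt (0 : Ix n)]) (ha 0)
  set m : Ix n := fun j => ⌊ζ j⌋ with hm
  set θ : V n := fun j => Int.fract (ζ j) with hθ
  have hθ1 : ∀ j, |θ j| ≤ 1 := fun j => by
    rw [abs_of_nonneg (Int.fract_nonneg _)]
    exact (Int.fract_lt_one _).le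
  obtain ⟨hd, -, hbd⟩ := h3 χ hχs hχt θ hθ1
  have hre : ∀ l : Ix n, ζ - fr 0 (m - l) = fr θ l := fun l => by
    funext j
    have := Int.floor_add_fract (ζ j)
    simp only [fr, hm, hθ, Pi.sub_apply, Pi.zero_apply, add_zero]
    push_cast
    linarith
  have hsum1 : Summable fun l => wt l ^ (n + 1) * ‖cf θ χ l‖ := hd (n + 1)
  have hsum2 : Summable fun l => wr (fr θ l) ^ (n + 1) * ‖cf θ χ l‖ := by
    refine Summable.of_nonneg_of_le (fun l => ?_) (fun l => ?_)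
      (hsum1.mul_left ((1 + (n : ℝ)) ^ (n + 1)))
    · have := one_le_wr (fr θ l)
      positivity
    · rw [← mul_assoc, ← mul_pow]
      refine mul_le_mul_of_nonneg_right ?_ (norm_nonneg _)
      exact pow_le_pow_left₀ (by linarith [one_le_wr (fr θ l)]) (wr_fr_le hθ1 l) _
  have hle2 : ∑' l, wr (fr θ l) ^ (n + 1) * ‖cf θ χ l‖ ≤ (1 + (n : ℝ)) ^ (n + 1) * (C * B) := by
    calc ∑' l, wr (fr θ l) ^ (n + 1) * ‖cf θ χ l‖
        ≤ ∑' l, (1 + (n : ℝ)) ^ (n + 1) * (wt l ^ (n + 1) * ‖cf θ χ l‖) := by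
          refine hsum2.tsum_le_tsum (fun l => ?_) (hsum1.mul_left _)
          rw [← mul_assoc, ← mul_pow]
          refine mul_le_mul_of_nonneg_right ?_ (norm_nonneg _)
          exact pow_le_pow_left₀ (by linarith [one_le_wr (fr θ l)]) (wr_fr_le hθ1 l) _
      _ = (1 + (n : ℝ)) ^ (n + 1) * nm (n + 1) (cf θ χ) := by rw [tsum_mul_left]; rfl
      _ ≤ _ := mul_le_mul_of_nonneg_left (hbd B hχB) (by positivity)
  -- reindexing
  have hinj : ∑' k, wr (ζ - fr 0 k) ^ (n + 1) * ‖ft χ (ζ - fr 0 k)‖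
      = ∑' l, wr (fr θ l) ^ (n + 1) * ‖cf θ χ l‖ := by
    rw [← (Equiv.subLeft m).tsum_eq]
    refine tsum_congr fun l => ?_
    rw [Equiv.subLeft_apply, hre l]
    rfl
  have hsum3 : Summable fun k => wr (ζ - fr 0 k) ^ (n + 1) * ‖ft χ (ζ - fr 0 k)‖ := by
    rw [← (Equiv.subLeft m).summable_iff]
    refine hsum2.congr fun l => ?_
    simp only [Function.comp, Equiv.subLeft_apply, hre l]
    rfl
  have hterm : ∀ k, wr ζ ^ (n + 1) * ‖cf 0 f k * ft χ (ζ - fr 0 k)‖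
      ≤ a * (wr (ζ - fr 0 k) ^ (n + 1) * ‖ft χ (ζ - fr 0 k)‖) := fun k => by
    have e : wr ζ ≤ wt k * wr (ζ - fr 0 k) := by
      have := wr_add_le (fr 0 k) (ζ - fr 0 k)
      rwa [add_sub_cancel, wr_fr_zero] at this
    have e2 : wr ζ ^ (n + 1) ≤ wt k ^ (n + 1) * wr (ζ - fr 0 k) ^ (n + 1) := by
      rw [← mul_pow]
      exact pow_le_pow_left₀ (by linarith [one_le_wr ζ]) e _
    have w1 := one_le_wr (ζ - fr 0 k)
    rw [norm_mul]
    calc wr ζ ^ (n + 1) * (‖cf 0 f k‖ * ‖ft χ (ζ - fr 0 k)‖)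
        ≤ (wt k ^ (n + 1) * wr (ζ - fr 0 k) ^ (n + 1)) * (‖cf 0 f k‖ * ‖ft χ (ζ - fr 0 k)‖) :=
          mul_le_mul_of_nonneg_right e2 (by positivity)
      _ = (wt k ^ (n + 1) * ‖cf 0 f k‖) * (wr (ζ - fr 0 k) ^ (n + 1) * ‖ft χ (ζ - fr 0 k)‖) := by
          ring
      _ ≤ _ := mul_le_mul_of_nonneg_right (ha k) (by positivity)
  have hsum4 : Summable fun k => wr ζ ^ (n + 1) * ‖cf 0 f k * ft χ (ζ - fr 0 k)‖ := by
    refine Summable.of_nonneg_of_le (fun k => ?_) hterm (hsum3.mul_left a)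
    have := one_le_wr ζ
    positivity
  have hsum5 : Summable fun k => ‖cf 0 f k * ft χ (ζ - fr 0 k)‖ := by
    have h0 : wr ζ ^ (n + 1) ≠ 0 := by
      have := one_le_wr ζ
      positivity
    exact (summable_mul_left_iff h0).mp hsum4
  rw [ft_interp hf0 hχ1 hχs.continuous hχc hχt hcs hexp ζ]
  have w0 := one_le_wr ζ
  calc wr ζ ^ (n + 1) * ‖∑' k, cf 0 f k * ft χ (ζ - fr 0 k)‖
      ≤ wr ζ ^ (n + 1) * ∑' k, ‖cf 0 f k * ft χ (ζ - fr 0 k)‖ :=
        mul_le_mul_of_nonneg_left (norm_tsum_le_tsum_norm hsum5) (by positivity)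
    _ = ∑' k, wr ζ ^ (n + 1) * ‖cf 0 f k * ft χ (ζ - fr 0 k)‖ := by rw [tsum_mul_left]
    _ ≤ ∑' k, a * (wr (ζ - fr 0 k) ^ (n + 1) * ‖ft χ (ζ - fr 0 k)‖) :=
        hsum4.tsum_le_tsum hterm (hsum3.mul_left a)
    _ = a * ∑' l, wr (fr θ l) ^ (n + 1) * ‖cf θ χ l‖ := by rw [tsum_mul_left, hinj]
    _ ≤ a * ((1 + (n : ℝ)) ^ (n + 1) * (C * B)) := mul_le_mul_of_nonneg_left hle2 ha0
    _ = _ := by ring

end Vale.Agent.P088.H327
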